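import Mathlib.Data.Nat.Bitwise

/-!
# A kernel checker for RUP / LRAT certificates

A literal is a natural number: `2 * v` is the variable `v`, `2 * v + 1` its negation.  A clause is a
natural number: the set of its literals as a bit mask.  An assignment is the mask of the
literals which are false.

The clauses of the problem are the values of a function `cnf : Nat → Nat` (any function; only the
values which are used are evaluated), the learned clauses with their hints are the leaves of a tree
`DB`.  `run E (look cnf n DB) n DB 0 1 = true` (by `decide +kernel`; sub-trees can be checked in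
different files) makes all learned clauses consequences of the problem (`learned`); if one of them
is empty, the problem has no model (`unsat`).  `E` is the mask of the positive literals, `mkE V`
for `V` variables.

The functions are written with recursors, so that the kernel evaluates them fast; all arithmetic is
done with the binary operations of the kernel.
-/

namespace Vale.Agent.P032.H859.Rup

/-! ### Semantics -/

/-- the literal `l` is true under `ν` -/
def Lit (ν : Nat → Prop) (l : Nat) : Prop := if l % 2 = 0 then ν (l / 2) else ¬ ν (l / 2)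

/-- the clause `c` is true under `ν` -/
def Sat (ν : Nat → Prop) (c : Nat) : Prop := ∃ l, c.testBit l = true ∧ Lit ν l

/-- all literals in `m` are false under `ν` -/
def Fal (ν : Nat → Prop) (m : Nat) : Prop := ∀ l, m.testBit l = true → ¬ Lit ν l

theorem lit_neg (ν : Nat → Prop) (l : Nat) : Lit ν (l ^^^ 1) ↔ ¬ Lit ν l := by
  unfold Lit
  have h2 : (l ^^^ 1) / 2 = l / 2 := by rw [Nat.xor_div_two]; exact Nat.xor_zero _
  have h3 : (l ^^^ 1) % 2 = (l + 1) % 2 := Nat.xor_mod_two_eq
  rw [h2, h3]
  by_cases h : l % 2 = 0
  · have h1 : (l + 1) % 2 ≠ 0 := by omega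
    rw [if_pos h, if_neg h1]
  · have h1 : (l + 1) % 2 = 0 := by omega
    rw [if_neg h, if_pos h1, not_not]

theorem not_sat_zero (ν : Nat → Prop) : ¬ Sat ν 0 := by
  rintro ⟨l, hl, -⟩
  rw [Nat.zero_testBit] at hl
  cases hl

/-! ### The data base -/

/-- a leaf is a learned clause (`l` : a mask, `p` : a packed list of literals, see `dec`), its
hints, and the number of its hints minus one; the left subtree has the even indices -/
inductive Tr where
  | l : Nat → Nat → Nat → Tr
  | p : Nat → Nat → Nat → Tr
  | n : Tr → Tr → Tr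

/-- the mask of a packed list of literals: `c / 2 ^ 8` is the list in base `2 ^ 16`, `c % 2 ^ 8` is
its length -/
noncomputable def dec (c : Nat) : Nat :=
  Nat.rec (motive := fun _ => Nat → Nat → Nat) (fun _ a => a)
    (fun _ ih P a => ih (Nat.shiftRight P 16) (Nat.lor a (Nat.shiftLeft 1 (Nat.land P 65535))))
    (Nat.land c 255) (Nat.shiftRight c 8) 0

/-- the learned clause with a given index -/
noncomputable def getC (t : Tr) : Nat → Nat :=
  Tr.rec (motive := fun _ => Nat → Nat) (fun c _ _ _ => c) (fun c _ _ _ => dec c)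
    (fun _ _ gl gr i => Bool.rec (motive := fun _ => Nat) (gr (Nat.shiftRight i 1))
      (gl (Nat.shiftRight i 1)) (Nat.beq (Nat.land i 1) 0)) t

/-- look up: the clauses of the problem have the indices below `n` -/
noncomputable def look (cnf : Nat → Nat) (n : Nat) (DB : Tr) (i : Nat) : Nat :=
  Bool.rec (motive := fun _ => Nat) (getC DB (Nat.sub i n)) (cnf i) (Nat.ble (Nat.succ i) n)

/-! ### Unit propagation -/

/-- the clause `c` without the false literals `α` -/
abbrev rest (c α : Nat) : Nat := Nat.xor c (Nat.land c α)

/-- the negation of the literal `l`, as masks; `E` is the mask of the positive literals -/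
abbrev ng (E r : Nat) : Nat :=
  Nat.lor (Nat.shiftLeft (Nat.land r E) 1) (Nat.land (Nat.shiftRight r 1) E)

/-- unit propagation for the clause with index `i`, along `k` hints, from the assignment `α`; `H`
is the list of the hints in base `2 ^ 20`; the hint `d` is the clause with index `i - d - 1` -/
noncomputable def adv (E : Nat) (L : Nat → Nat) (i k : Nat) : Nat → Nat → Nat :=
  Nat.rec (motive := fun _ => Nat → Nat → Nat) (fun _ α => α)
    (fun _ ih H α => Nat.rec (motive := fun _ => Nat) 0
      (fun m _ => (fun r : Nat => Bool.rec (motive := fun _ => Nat) 0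
          (ih (Nat.shiftRight H 20)
            (Nat.lor α (Nat.lor (Nat.shiftLeft (Nat.land r E) 1) (Nat.land (Nat.shiftRight r 1) E))))
          (Nat.beq (Nat.land r (Nat.sub r 1)) 0)) (Nat.xor (L m) (Nat.land (L m) α)))
      (Nat.sub i (Nat.land H 1048575))) k

/-- the last hint is a clause which is false -/
noncomputable def fin (L : Nat → Nat) (i H α : Nat) : Bool :=
  Nat.rec (motive := fun _ => Bool) false
      (fun m _ => Nat.beq (Nat.xor (L m) (Nat.land (L m) α)) 0) (Nat.sub i (Nat.land H 1048575))

/-- unit propagation along `k` hints, in blocks of 32 (this keeps the recursion of the kernel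
shallow), then a false clause -/
noncomputable def prop (E : Nat) (L : Nat → Nat) (i k : Nat) : Nat → Nat → Bool :=
  Nat.rec (motive := fun _ => Nat → Nat → Bool)
    (fun H α => fin L i (Nat.shiftRight H (Nat.mul 20 (Nat.land k 31)))
      (adv E L i (Nat.land k 31) H α))
    (fun _ ih H α => ih (Nat.shiftRight H 640) (adv E L i 32 H α)) (Nat.shiftRight k 5)

theorem testBit_diff (h α l : Nat) : (rest h α).testBit l = (h.testBit l && !α.testBit l) := by
  show (h ^^^ (h &&& α)).testBit l = _
  rw [Nat.testBit_xor, Nat.testBit_and]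
  cases h.testBit l <;> cases α.testBit l <;> rfl

/-- a number with `r &&& (r - 1) = 0` is a power of two -/
theorem pow_of_and (r : Nat) : r ≠ 0 → r &&& (r - 1) = 0 → ∃ k, r = 2 ^ k := by
  induction r using Nat.strong_induction_on with
  | _ r ih =>
    intro h0 h
    rcases Nat.even_or_odd' r with ⟨s, hs | hs⟩
    · have hs0 : s ≠ 0 := by omega
      have h1 : s &&& (s - 1) = 0 := by
        have h2 : (r &&& (r - 1)) / 2 = s &&& (s - 1) := by
          rw [Nat.and_div_two]
          have e1 : r / 2 = s := by omega
          have e2 : (r - 1) / 2 = s - 1 := by omega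
          rw [e1, e2]
        rw [← h2, h]
      obtain ⟨k, hk⟩ := ih s (by omega) hs0 h1
      exact ⟨k + 1, by rw [hs, hk, pow_succ]; omega⟩
    · have h1 : s &&& s = 0 := by
        have h2 : (r &&& (r - 1)) / 2 = s &&& s := by
          rw [Nat.and_div_two]
          have e1 : r / 2 = s := by omega
          have e2 : (r - 1) / 2 = s := by omega
          rw [e1, e2]
        rw [← h2, h]
      rw [Nat.and_self] at h1
      exact ⟨0, by rw [hs, h1]; rfl⟩

/-- `E` is a mask of positive literals -/
def Even' (E : Nat) : Prop := ∀ m, E.testBit m = true → m % 2 = 0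

/-- one step of unit propagation -/
theorem unit_step {ν : Nat → Prop} {E c α : Nat} (hE : Even' E) (hc : Sat ν c) (hα : Fal ν α) :
    rest c α ≠ 0 ∧ (Nat.beq (Nat.land (rest c α) (Nat.sub (rest c α) 1)) 0 = true →
      Fal ν (Nat.lor α (ng E (rest c α)))) := by
  obtain ⟨l, hl, hl2⟩ := hc
  have hlr : (rest c α).testBit l = true := by
    rw [testBit_diff, hl]
    have : α.testBit l = false := by
      cases h1 : α.testBit l
      · rfl
      · exact absurd hl2 (hα l h1)
    rw [this]; rfl
  have h0 : rest c α ≠ 0 := by
    intro h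
    rw [h, Nat.zero_testBit] at hlr
    cases hlr
  refine ⟨h0, fun hb => ?_⟩
  obtain ⟨k, hk⟩ := pow_of_and _ h0 (Nat.eq_of_beq_eq_true hb)
  rw [hk] at hlr ⊢
  rw [Nat.testBit_two_pow] at hlr
  have e3 : k = l := of_decide_eq_true hlr
  intro m hm
  have hm' : (α.testBit m || (ng E (2 ^ k)).testBit m) = true := by
    rw [← Nat.testBit_or]; exact hm
  rcases Bool.or_eq_true_iff.1 hm' with h1 | h1
  · exact hα m h1
  · have h2 : m = l ^^^ 1 := by
      replace h1 : (((2 ^ k &&& E) <<< 1) ||| ((2 ^ k >>> 1) &&& E)).testBit m = true := h1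
      rw [Nat.testBit_or, Nat.testBit_shiftLeft, Nat.testBit_and, Nat.testBit_and,
        Nat.testBit_shiftRight, Nat.testBit_two_pow, Nat.testBit_two_pow] at h1
      rcases Bool.or_eq_true_iff.1 h1 with h3 | h3
      · have h4 := Bool.and_eq_true_iff.1 h3
        have h5 := Bool.and_eq_true_iff.1 h4.2
        have h6 : m ≥ 1 := of_decide_eq_true h4.1
        have h7 : k = m - 1 := of_decide_eq_true h5.1
        have h8 := hE _ h5.2
        have h9 : l ^^^ 1 = l + 1 := Nat.xor_one_of_even (Nat.even_iff.2 (by omega))
        omega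
      · have h5 := Bool.and_eq_true_iff.1 h3
        have h7 : k = 1 + m := of_decide_eq_true h5.1
        have h8 := hE _ h5.2
        have h9 : l ^^^ 1 = l - 1 := Nat.xor_one_of_odd (Nat.odd_iff.2 (by omega))
        omega
    rw [h2, lit_neg, not_not]
    exact hl2

theorem fal_zero (ν : Nat → Prop) : Fal ν 0 := by
  intro l hl
  rw [Nat.zero_testBit] at hl
  cases hl

theorem idx_lt {i H m : Nat} (hi : Nat.sub i H = Nat.succ m) : m < i := by
  have : i - H = m + 1 := hi
  omega

theorem adv_spec {ν : Nat → Prop} {E : Nat} (hE : Even' E) {L : Nat → Nat} {i : Nat}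
    (hL : ∀ m, m < i → Sat ν (L m)) (k : Nat) :
    ∀ H α : Nat, Fal ν α → Fal ν (adv E L i k H α) := by
  induction k with
  | zero => intro H α hα; exact hα
  | succ f ih =>
    intro H α hα
    have h : adv E L i (f + 1) H α = (Nat.rec (motive := fun _ => Nat) 0
      (fun m _ => (Bool.rec (motive := fun _ => Nat) 0
          (adv E L i f (Nat.shiftRight H 20) (Nat.lor α (ng E (rest (L m) α))))
          (Nat.beq (Nat.land (rest (L m) α) (Nat.sub (rest (L m) α) 1)) 0)))
      (Nat.sub i (Nat.land H 1048575))) := rfl
    rw [h]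
    cases hi : Nat.sub i (Nat.land H 1048575) with
    | zero => exact fal_zero ν
    | succ m =>
      show Fal ν (Bool.rec (motive := fun _ => Nat) 0
          (adv E L i f (Nat.shiftRight H 20) (Nat.lor α (ng E (rest (L m) α))))
          (Nat.beq (Nat.land (rest (L m) α) (Nat.sub (rest (L m) α) 1)) 0))
      cases hb : Nat.beq (Nat.land (rest (L m) α) (Nat.sub (rest (L m) α) 1)) 0 with
      | false => exact fal_zero ν
      | true => exact ih _ _ ((unit_step hE (hL m (idx_lt hi)) hα).2 hb)

theorem fin_spec {ν : Nat → Prop} {L : Nat → Nat} {i : Nat}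
    (hL : ∀ m, m < i → Sat ν (L m)) {H α : Nat} (hα : Fal ν α) (h : fin L i H α = true) :
    False := by
  unfold fin at h
  cases hi : Nat.sub i (Nat.land H 1048575) with
  | zero => rw [hi] at h; cases h
  | succ m =>
    rw [hi] at h
    exact (unit_step (E := 0) (fun m hm => by rw [Nat.zero_testBit] at hm; cases hm)
      (hL m (idx_lt hi)) hα).1 (Nat.eq_of_beq_eq_true h)

theorem prop_aux {ν : Nat → Prop} {E : Nat} (hE : Even' E) {L : Nat → Nat} {i : Nat}
    (hL : ∀ m, m < i → Sat ν (L m)) (k q : Nat) : ∀ H α : Nat, Fal ν α →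
    Nat.rec (motive := fun _ => Nat → Nat → Bool)
      (fun H α => fin L i (Nat.shiftRight H (Nat.mul 20 (Nat.land k 31)))
        (adv E L i (Nat.land k 31) H α))
      (fun _ ih H α => ih (Nat.shiftRight H 640) (adv E L i 32 H α)) q H α = true → False := by
  induction q with
  | zero => intro H α hα h; exact fin_spec hL (adv_spec hE hL _ H α hα) h
  | succ q ih => intro H α hα h; exact ih _ _ (adv_spec hE hL 32 H α hα) h

theorem prop_spec {ν : Nat → Prop} {E : Nat} (hE : Even' E) {L : Nat → Nat} {i : Nat}
    (hL : ∀ m, m < i → Sat ν (L m)) (k H α : Nat) (hα : Fal ν α)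
    (h : prop E L i k H α = true) : False := prop_aux hE hL k (Nat.shiftRight k 5) H α hα h

/-- a checked clause is a consequence of the clauses before it -/
theorem sat_of_prop {ν : Nat → Prop} {E : Nat} (hE : Even' E) {L : Nat → Nat} {i : Nat}
    (hL : ∀ m, m < i → Sat ν (L m)) {k c H : Nat} (h : prop E L i k H c = true) : Sat ν c := by
  by_contra hcon
  exact prop_spec hE hL k H c (fun l hl hl2 => hcon ⟨l, hl, hl2⟩) h

/-! ### Certificates -/

/-- check all leaves of a tree: its leaf number `j` is the clause with index `n + i + s * j` -/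
noncomputable def run (E : Nat) (L : Nat → Nat) (n : Nat) (t : Tr) : Nat → Nat → Bool :=
  Tr.rec (motive := fun _ => Nat → Nat → Bool)
    (fun c H k i _ => prop E L (Nat.add n i) k H c)
    (fun c H k i _ => prop E L (Nat.add n i) k H (dec c))
    (fun _ _ rl rr i s => Bool.rec (motive := fun _ => Bool) false
      (rr (Nat.add i s) (Nat.shiftLeft s 1)) (rl i (Nat.shiftLeft s 1))) t

/-- two subtrees can be checked separately -/
theorem run_n {E : Nat} {L : Nat → Nat} {n : Nat} {a b : Tr} {i s : Nat}
    (h1 : run E L n a i (Nat.shiftLeft s 1) = true)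
    (h2 : run E L n b (Nat.add i s) (Nat.shiftLeft s 1) = true) :
    run E L n (Tr.n a b) i s = true := by
  show (Bool.rec (motive := fun _ => Bool) false
      (run E L n b (Nat.add i s) (Nat.shiftLeft s 1)) (run E L n a i (Nat.shiftLeft s 1))) = true
  rw [h1]; exact h2

theorem run_n' {E : Nat} {L : Nat → Nat} {n : Nat} {a b : Tr} {i s : Nat}
    (h : run E L n (Tr.n a b) i s = true) : run E L n a i (Nat.shiftLeft s 1) = true ∧
      run E L n b (Nat.add i s) (Nat.shiftLeft s 1) = true := by
  replace h : (Bool.rec (motive := fun _ => Bool) false (run E L n b (Nat.add i s)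
      (Nat.shiftLeft s 1)) (run E L n a i (Nat.shiftLeft s 1))) = true := h
  cases h1 : run E L n a i (Nat.shiftLeft s 1) with
  | false => rw [h1] at h; cases h
  | true => rw [h1] at h; exact ⟨rfl, h⟩

theorem getC_n (a b : Tr) (i : Nat) :
    getC (Tr.n a b) i = if i % 2 = 0 then getC a (i / 2) else getC b (i / 2) := by
  have e : Nat.shiftRight i 1 = i / 2 := by
    show i >>> 1 = _
    rw [Nat.shiftRight_eq_div_pow, pow_one]
  have e' : Nat.land i 1 = i % 2 := Nat.and_one_is_mod i
  have h : getC (Tr.n a b) i = Bool.rec (motive := fun _ => Nat) (getC b (Nat.shiftRight i 1))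
      (getC a (Nat.shiftRight i 1)) (Nat.beq (Nat.land i 1) 0) := rfl
  rw [h, e, e']
  by_cases h1 : i % 2 = 0
  · rw [if_pos h1, h1]; rfl
  · have h2 : i % 2 = 1 := by omega
    rw [if_neg h1, h2]; rfl

theorem run_spec {E : Nat} {L : Nat → Nat} {n : Nat} (t : Tr) : ∀ i s : Nat,
    run E L n t i s = true →
    ∀ j, ∃ j' k H, j' ≤ j ∧ prop E L (n + (i + s * j')) k H (getC t j) = true := by
  induction t with
  | l c H k =>
    intro i s h j
    refine ⟨0, k, H, Nat.zero_le _, ?_⟩
    have e : i + s * 0 = i := by rw [Nat.mul_zero, Nat.add_zero]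
    rw [e]; exact h
  | p c H k =>
    intro i s h j
    refine ⟨0, k, H, Nat.zero_le _, ?_⟩
    have e : i + s * 0 = i := by rw [Nat.mul_zero, Nat.add_zero]
    rw [e]; exact h
  | n a b iha ihb =>
    intro i s h j
    obtain ⟨h1, h2⟩ := run_n' h
    have e : Nat.shiftLeft s 1 = 2 * s := by
      show s <<< 1 = _
      rw [Nat.shiftLeft_eq]; omega
    rw [e] at h1 h2
    rw [getC_n]
    by_cases hj : j % 2 = 0
    · obtain ⟨j', k, H, hj', h3⟩ := iha i (2 * s) h1 (j / 2)
      refine ⟨2 * j', k, H, by omega, ?_⟩
      rw [if_pos hj]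
      have : i + s * (2 * j') = i + 2 * s * j' := by rw [Nat.mul_left_comm, Nat.mul_assoc]
      rw [this]; exact h3
    · obtain ⟨j', k, H, hj', h3⟩ := ihb (Nat.add i s) (2 * s) h2 (j / 2)
      refine ⟨2 * j' + 1, k, H, by omega, ?_⟩
      rw [if_neg hj]
      have : i + s * (2 * j' + 1) = Nat.add i s + 2 * s * j' := by
        show _ = i + s + _
        rw [Nat.mul_add, Nat.mul_one, Nat.mul_left_comm, Nat.mul_assoc]; omega
      rw [this]; exact h3

theorem look_lt {cnf : Nat → Nat} {n : Nat} {DB : Tr} {i : Nat} (h : i < n) :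
    look cnf n DB i = cnf i := by
  have : Nat.ble (Nat.succ i) n = true := Nat.ble_eq_true_of_le h
  unfold look; rw [this]

theorem look_ge {cnf : Nat → Nat} {n : Nat} {DB : Tr} {i : Nat} (h : n ≤ i) :
    look cnf n DB i = getC DB (i - n) := by
  have : Nat.ble (Nat.succ i) n = false := by
    cases hb : Nat.ble (Nat.succ i) n
    · rfl
    · have := Nat.le_of_ble_eq_true hb
      omega
  unfold look; rw [this]; rfl

/-- **Soundness**: all learned clauses are consequences of the problem. -/
theorem learned {E : Nat} (hE : Even' E) {cnf : Nat → Nat} {n : Nat} {DB : Tr}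
    (h : run E (look cnf n DB) n DB 0 1 = true) {ν : Nat → Prop}
    (hν : ∀ i, i < n → Sat ν (cnf i)) (j : Nat) : Sat ν (getC DB j) := by
  induction j using Nat.strong_induction_on with
  | _ j ih =>
    obtain ⟨j', k, H, hj', h1⟩ := run_spec DB 0 1 h j
    rw [Nat.zero_add, Nat.one_mul] at h1
    refine sat_of_prop hE (L := look cnf n DB) (i := n + j') (fun m hm => ?_) h1
    by_cases hmn : m < n
    · rw [look_lt hmn]; exact hν m hmn
    · rw [look_ge (Nat.le_of_not_lt hmn)]
      exact ih _ (by omega)

/-- **Unsatisfiability**: if the learned clause `j` is empty, the problem has no model. -/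
theorem unsat {E : Nat} (hE : Even' E) {cnf : Nat → Nat} {n j : Nat} {DB : Tr}
    (h : run E (look cnf n DB) n DB 0 1 = true) (h0 : getC DB j = 0) {ν : Nat → Prop}
    (hν : ∀ i, i < n → Sat ν (cnf i)) : False := by
  have := learned hE h hν j
  rw [h0] at this
  exact not_sat_zero ν this

/-- a test of all leaves of a tree: `g c H k` is called with the mask `c` and the numbers `H`, `k` of
the leaf (use: `H` and `k` say which rule instance gives the clause `c`) -/
noncomputable def allb (g : Nat → Nat → Nat → Bool) (t : Tr) : Bool :=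
  Tr.rec (motive := fun _ => Bool) (fun c H k => g c H k) (fun c H k => g (dec c) H k)
    (fun _ _ a b => Bool.rec (motive := fun _ => Bool) false b a) t

/-- if the test recognises only true clauses, all clauses of the tree are true -/
theorem sat_of_allb {ν : Nat → Prop} {g : Nat → Nat → Nat → Bool}
    (hg : ∀ c H k, g c H k = true → Sat ν c) (t : Tr) :
    allb g t = true → ∀ i, Sat ν (getC t i) := by
  induction t with
  | l c H k => intro h i; exact hg c H k h
  | p c H k => intro h i; exact hg (dec c) H k h
  | n a b iha ihb =>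
    intro h i
    replace h : (Bool.rec (motive := fun _ => Bool) false (allb g b) (allb g a)) = true := h
    rw [getC_n]
    cases h1 : allb g a with
    | false => rw [h1] at h; cases h
    | true =>
      rw [h1] at h
      by_cases hi : i % 2 = 0
      · rw [if_pos hi]; exact iha h1 _
      · rw [if_neg hi]; exact ihb h _

/-- the mask of the first `V` positive literals -/
def mkE (V : Nat) : Nat := (4 ^ V - 1) / 3

theorem mkE_succ (V : Nat) : mkE (V + 1) = 4 ^ V + mkE V := by
  unfold mkE
  have h1 : 1 ≤ 4 ^ V := Nat.one_le_pow _ _ (by decide)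
  have h2 : 4 ^ (V + 1) = 4 * 4 ^ V := by rw [pow_succ, Nat.mul_comm]
  omega

theorem mkE_succ' (V : Nat) : mkE (V + 1) = 4 * mkE V + 1 := by
  induction V with
  | zero => rfl
  | succ V ih =>
    have a := mkE_succ (V + 1)
    have b := mkE_succ V
    have h2 : 4 ^ (V + 1) = 4 * 4 ^ V := by rw [pow_succ, Nat.mul_comm]
    omega

theorem even_mkE (V : Nat) : Even' (mkE V) := by
  induction V with
  | zero =>
    intro m hm
    have : mkE 0 = 0 := rfl
    rw [this, Nat.zero_testBit] at hm
    cases hm
  | succ V ih =>
    intro m hm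
    rw [mkE_succ'] at hm
    match m, hm with
    | 0, _ => rfl
    | 1, hm =>
      rw [Nat.testBit_succ] at hm
      have e : (4 * mkE V + 1) / 2 = 2 * mkE V := by omega
      rw [e, Nat.testBit_zero] at hm
      have := of_decide_eq_true hm
      omega
    | m + 2, hm =>
      rw [Nat.testBit_succ, Nat.testBit_succ] at hm
      have e : (4 * mkE V + 1) / 2 / 2 = mkE V := by omega
      rw [e] at hm
      have := ih m hm
      omega

end Vale.Agent.P032.H859.Rup
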